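import Vale.Agent.P256.Main
import Vale.Agent.P256.Apex

/-!
# P256: the family `det (s A(x) - G(w))`, stated with Mathlib notions only

Same mathematics as `QuadraticSchurFamily`, but hyperbolicity, the hyperbolicity cone and
spectrahedral shadows are written out, and the polynomial is pinned down by its values.
-/

namespace Vale.Agent.Results.P256.PlainSchurFamily

open MvPolynomial Matrix Vale.Agent.P256

theorem result {n k r : ℕ} (hr : 0 < r) (A : Fin n → Matrix (Fin r) (Fin r) ℝ)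
    (hA : ∀ i, (A i).IsSymm) (G : Fin k → Fin k → Matrix (Fin r) (Fin r) ℝ)
    (hG : ∀ w : Fin k → ℝ, (∑ a, ∑ b, (w a * w b) • G a b).PosSemidef)
    (hnd : ∀ w : Fin k → ℝ, ∑ a, ∑ b, (w a * w b) • G a b = 0 → w = 0)
    (e0 : Fin n → ℝ) (he : (∑ i, e0 i • A i).PosDef) :
    ∃ (p : MvPolynomial (Unit ⊕ (Fin n ⊕ Fin k)) ℝ) (e : Unit ⊕ (Fin n ⊕ Fin k) → ℝ),
      e = Sum.elim (fun _ => 1) (Sum.elim e0 fun _ => 0) ∧
      (∀ y, eval y p = (y (.inl ()) • ∑ i, y (.inr (.inl i)) • A i -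
        ∑ a, ∑ b, (y (.inr (.inr a)) * y (.inr (.inr b))) • G a b).det) ∧
      (∃ d, p.IsHomogeneous d) ∧ 0 < eval e p ∧
      (∀ (x : Unit ⊕ (Fin n ⊕ Fin k) → ℝ) (t : ℂ),
        aeval (fun i => t * (e i : ℂ) - (x i : ℂ)) p = 0 → t.im = 0) ∧
      (∃ (m a : ℕ) (B0 : Matrix (Fin m) (Fin m) ℝ)
        (B : Unit ⊕ (Fin n ⊕ Fin k) → Matrix (Fin m) (Fin m) ℝ)
        (C : Fin a → Matrix (Fin m) (Fin m) ℝ),
        B0.IsSymm ∧ (∀ i, (B i).IsSymm) ∧ (∀ j, (C j).IsSymm) ∧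
        {x : Unit ⊕ (Fin n ⊕ Fin k) → ℝ | ∀ t : ℝ, eval (fun i => t * e i - x i) p = 0 → 0 ≤ t} =
          {x | ∃ u : Fin a → ℝ, (B0 + ∑ i, x i • B i + ∑ j, u j • C j).PosSemidef}) ∧
      (2 ≤ r → ∃ z : Unit ⊕ (Fin n ⊕ Fin k) → ℝ, z ≠ 0 ∧
        (∀ t : ℝ, eval (fun i => t * e i - z i) p = 0 → 0 ≤ t) ∧
        eval z p = 0 ∧ ∀ i, eval z (pderiv i p) = 0) := by
  have hG' : ∀ w, (quad G w).PosSemidef := hG
  have hnd' : ∀ w, quad G w = 0 → w = 0 := hnd
  have he' : (lin A e0).PosDef := he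
  obtain ⟨hd, hpos, hreal⟩ := isHyperbolic_thePoly A hA G hG' e0 he'
  refine ⟨thePoly A G, dir e0, rfl, fun y => eval_thePoly A G y, hd, hpos, hreal,
    isShadow_hypCone hr A hA G hG' hnd' e0 he', fun h2 => ⟨apex n k, ?_, ?_, ?_, ?_⟩⟩
  · intro h
    have := congrFun h (Sum.inl ())
    simp [apex] at this
  · have hmem : apex n k ∈ hypCone (thePoly A G) (dir e0) := by
      rw [hypCone_thePoly hr A hA G hG' e0 he']
      have hx : lin A (xOf (apex n k)) = 0 := by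
        simp [lin, xOf, apex]
      have hw : quad G (wOf (apex n k)) = 0 := by
        simp [quad, wOf, apex]
      simp only [Set.mem_ofPred_eq, hx, hw]
      refine ⟨by simp [sOf, apex], Matrix.PosSemidef.zero, ?_⟩
      simpa using Matrix.PosSemidef.zero
    exact hmem
  · rw [eval_thePoly]
    have hx : lin A (xOf (apex n k)) = 0 := by
      simp [lin, xOf, apex]
    have hw : quad G (wOf (apex n k)) = 0 := by
      simp [quad, wOf, apex]
    rw [hx, hw]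
    have : Nonempty (Fin r) := ⟨⟨0, hr⟩⟩
    simp
  · exact fun i => eval_apex_pderiv h2 A G i

end Vale.Agent.Results.P256.PlainSchurFamily
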