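import Vale.Agent.P256.Main
import Vale.Agent.P256.Apex

/-!
# P256: a family of hyperbolicity cones with singular boundary that are spectrahedral shadows

For a symmetric pencil `lin A x` of size `r ≥ 1`, definite at `e0`, and ANY quadratic map
`quad G w` with positive semidefinite values (nondegenerate: `quad G w = 0` only for `w = 0`),
the polynomial `det (s * lin A x - quad G w)` in the variables `(s, x, w)` is hyperbolic with respect
to `(1, e0, 0)`, its hyperbolicity cone is `{s ≥ 0, lin A x ⪰ 0, s * lin A x - quad G w ⪰ 0}`, and this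
cone is a spectrahedral shadow.  For `r ≥ 2` the nonzero point `(1, 0, 0)` of the cone is a zero of the
polynomial at which all partial derivatives vanish.
-/

namespace Vale.Agent.Results.P256.QuadraticSchurFamily

open MvPolynomial Matrix Vale.Agent.P256

theorem result {n k r : ℕ} (hr : 0 < r) (A : Fin n → Matrix (Fin r) (Fin r) ℝ)
    (hA : ∀ i, (A i).IsSymm) (G : Fin k → Fin k → Matrix (Fin r) (Fin r) ℝ)
    (hG : ∀ w, (quad G w).PosSemidef) (hnd : ∀ w, quad G w = 0 → w = 0)
    (e0 : Fin n → ℝ) (he : (lin A e0).PosDef) :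
    IsHyperbolic (thePoly A G) (dir e0) ∧
    hypCone (thePoly A G) (dir e0) = {y | 0 ≤ sOf y ∧ (lin A (xOf y)).PosSemidef ∧
      (sOf y • lin A (xOf y) - quad G (wOf y)).PosSemidef} ∧
    IsShadow (hypCone (thePoly A G) (dir e0)) ∧
    (2 ≤ r → apex n k ∈ hypCone (thePoly A G) (dir e0) ∧ apex n k ≠ 0 ∧
      eval (apex n k) (thePoly A G) = 0 ∧
      ∀ i, eval (apex n k) (pderiv i (thePoly A G)) = 0) := by
  refine ⟨isHyperbolic_thePoly A hA G hG e0 he, hypCone_thePoly hr A hA G hG e0 he,
    isShadow_hypCone hr A hA G hG hnd e0 he, fun h2 => ⟨?_, ?_, ?_, ?_⟩⟩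
  · rw [hypCone_thePoly hr A hA G hG e0 he]
    have hx : lin A (xOf (apex n k)) = 0 := by
      simp [lin, xOf, apex]
    have hw : quad G (wOf (apex n k)) = 0 := by
      simp [quad, wOf, apex]
    simp only [Set.mem_ofPred_eq, hx, hw]
    refine ⟨by simp [sOf, apex], Matrix.PosSemidef.zero, ?_⟩
    simpa using Matrix.PosSemidef.zero
  · intro h
    have := congrFun h (Sum.inl ())
    simp [apex] at this
  · rw [eval_thePoly]
    have hx : lin A (xOf (apex n k)) = 0 := by
      simp [lin, xOf, apex]
    have hw : quad G (wOf (apex n k)) = 0 := by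
      simp [quad, wOf, apex]
    rw [hx, hw]
    have : Nonempty (Fin r) := ⟨⟨0, hr⟩⟩
    simp
  · exact fun i => eval_apex_pderiv h2 A G i

end Vale.Agent.Results.P256.QuadraticSchurFamily
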